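import Mathlib

open MeasureTheory Set
open scoped ENNReal NNReal InnerProductSpace

namespace Vale.Agent.Results.P074.OneThird

/-- Euclidean space R^d. -/
abbrev E (d : ℕ) := EuclideanSpace ℝ (Fin d)

/-- The uniform probability measure |K|^{-1} 1_K dx. -/
noncomputable def unif {d : ℕ} (K : Set (E d)) : Measure (E d) :=
  (volume K)⁻¹ • volume.restrict K

/-- T is a Borel map pushing rho forward to mu. -/
def IsTransport {d : ℕ} (ρ μ : Measure (E d)) (T : E d → E d) : Prop :=
  Measurable T ∧ ρ.map T = μ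

/-- T is a quadratic optimal transport map from rho to mu. -/
def IsOptimalMap {d : ℕ} (ρ μ : Measure (E d)) (T : E d → E d) : Prop :=
  IsTransport ρ μ T ∧ ∀ S, IsTransport ρ μ S →
    ∫⁻ x, ‖x - T x‖ₑ ^ 2 ∂ρ ≤ ∫⁻ x, ‖x - S x‖ₑ ^ 2 ∂ρ

/-- The quadratic Wasserstein distance: infimum over couplings. -/
noncomputable def W2 {d : ℕ} (μ ν : Measure (E d)) : ℝ≥0∞ :=
  ⨅ (π : Measure (E d × E d)) (_ : π.map Prod.fst = μ ∧ π.map Prod.snd = ν),
    (∫⁻ p, ‖p.1 - p.2‖ₑ ^ 2 ∂π) ^ (1 / 2 : ℝ)

/-- The L^2(rho) norm. -/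
noncomputable def L2norm {d : ℕ} (ρ : Measure (E d)) (F : E d → E d) : ℝ≥0∞ :=
  (∫⁻ x, ‖F x‖ₑ ^ 2 ∂ρ) ^ (1 / 2 : ℝ)

/-- The exponent alpha is admissible in dimension d. -/
def Admissible (d : ℕ) (α : ℝ) : Prop :=
  ∀ K : Set (E d), IsCompact K → Convex ℝ K → (interior K).Nonempty →
    ∀ Y : Set (E d), IsCompact Y → Y.Nonempty → ∃ C : ℝ≥0,
      ∀ μ ν : Measure (E d), IsProbabilityMeasure μ → IsProbabilityMeasure ν →
        μ Yᶜ = 0 → ν Yᶜ = 0 → ∀ T S : E d → E d,
          IsOptimalMap (unif K) μ T → IsOptimalMap (unif K) ν S →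
            L2norm (unif K) (fun x => T x - S x) ≤ C * W2 μ ν ^ α

variable {d : ℕ}

noncomputable def two (y : E d) (t : ℝ) (x : E d) : E d := if t < ⟪x, y⟫_ℝ then y else 0

lemma two_meas (y : E d) (t : ℝ) : Measurable (two y t) :=
  Measurable.ite (measurableSet_lt measurable_const (by fun_prop)) measurable_const
    measurable_const

lemma enorm_sq (v : E d) : ‖v‖ₑ ^ 2 = ENNReal.ofReal (‖v‖ ^ 2) := by
  rw [← ofReal_norm, ENNReal.ofReal_pow (norm_nonneg _)]

lemma two_opt (ρ : Measure (E d)) [IsFiniteMeasure ρ] {y : E d} (hy : y ≠ 0) {t : ℝ}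
    (ht : 0 ≤ t) : IsOptimalMap ρ (ρ.map (two y t)) (two y t) := by
  classical
  refine ⟨⟨two_meas y t, rfl⟩, fun S hS => ?_⟩
  let h : E d → ℝ≥0∞ := fun z => if z = y then ENNReal.ofReal (2 * t) else ENNReal.ofReal (‖y‖ ^ 2)
  have hm : Measurable h :=
    Measurable.ite (measurableSet_singleton y) measurable_const measurable_const
  have e1 : ∫⁻ x, h (two y t x) ∂ρ = ∫⁻ x, h (S x) ∂ρ := by
    rw [← lintegral_map hm (two_meas y t), ← hS.2, lintegral_map hm hS.1]
  have hfin : ∫⁻ x, h (S x) ∂ρ ≠ ⊤ := by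
    refine ne_top_of_le_ne_top (b := ∫⁻ _, (ENNReal.ofReal (2 * t) + ENNReal.ofReal (‖y‖ ^ 2)) ∂ρ)
      ?_ (lintegral_mono fun x => ?_)
    · rw [lintegral_const]; finiteness
    · simp only [h]; split_ifs <;> simp
  have hae : ∀ᵐ x ∂ρ, S x ∈ ({0, y} : Set (E d)) := by
    have hs : MeasurableSet ({0, y} : Set (E d)) := (Set.toFinite _).measurableSet
    refine (ae_map_iff (p := fun z => z ∈ ({0, y} : Set (E d))) hS.1.aemeasurable hs).mp ?_
    rw [hS.2]
    refine (ae_map_iff (p := fun z => z ∈ ({0, y} : Set (E d))) (two_meas y t).aemeasurable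
      hs).mpr (ae_of_all _ fun x => ?_)
    unfold two; split_ifs <;> simp
  have key : ∫⁻ x, ‖x - two y t x‖ₑ ^ 2 + h (two y t x) ∂ρ ≤ ∫⁻ x, ‖x - S x‖ₑ ^ 2 + h (S x) ∂ρ := by
    refine lintegral_mono_ae (hae.mono fun x hx => ?_)
    have a0 : ‖x - 0‖ₑ ^ 2 + h 0 = ENNReal.ofReal (‖x‖ ^ 2 + ‖y‖ ^ 2) := by
      simp only [h, if_neg hy.symm, sub_zero, enorm_sq]
      rw [ENNReal.ofReal_add (by positivity) (by positivity)]
    have a1 : ‖x - y‖ₑ ^ 2 + h y = ENNReal.ofReal (‖x‖ ^ 2 + ‖y‖ ^ 2 + 2 * (t - ⟪x, y⟫_ℝ)) := by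
      simp only [h, if_true, enorm_sq]
      rw [← ENNReal.ofReal_add (by positivity) (by positivity), norm_sub_sq_real]
      congr 1; ring
    unfold two
    rcases hx with hx | hx <;> rw [hx] <;> split_ifs with h1
    · rw [a0, a1]; exact ENNReal.ofReal_le_ofReal (by linarith)
    · rfl
    · rfl
    · rw [a0, a1]; exact ENNReal.ofReal_le_ofReal (by linarith)
  rw [lintegral_add_right _ (g := fun x => h (two y t x)) (hm.comp (two_meas y t)),
    lintegral_add_right _ (g := fun x => h (S x)) (hm.comp hS.1), e1] at key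
  exact (ENNReal.add_le_add_iff_right hfin).mp key

def box (j : Fin d) (a b c : ℝ) : Set (E d) :=
  {x | ∀ i, x i ∈ Icc (if i = j then b else a) (if i = j then c else 1)}

lemma box_eq (j : Fin d) (a b c : ℝ) : box j a b c = WithLp.ofLp ⁻¹'
    Icc (fun i => if i = j then b else a) (fun i => if i = j then c else 1) := by
  ext x; simp [box, Pi.le_def, forall_and]

lemma vol_box (j : Fin d) (a b c : ℝ) : volume (box j a b c) =
    ENNReal.ofReal (c - b) * ENNReal.ofReal (1 - a) ^ (d - 1) := by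
  rw [box_eq, (PiLp.volume_preserving_ofLp (Fin d)).measure_preimage
    measurableSet_Icc.nullMeasurableSet, Real.volume_Icc_pi,
    ← Finset.mul_prod_erase _ _ (Finset.mem_univ j)]
  simp only [if_true]
  congr 1
  rw [Finset.prod_congr rfl (g := fun _ => ENNReal.ofReal (1 - a)) fun i hi => by
    simp [Finset.ne_of_mem_erase hi]]
  simp

lemma box_meas (j : Fin d) (a b c : ℝ) : MeasurableSet (box j a b c) := by
  rw [box_eq]; exact (PiLp.volume_preserving_ofLp (Fin d)).measurable measurableSet_Icc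

def cube (d : ℕ) : Set (E d) := {x | ∀ i, x i ∈ Icc (-1 : ℝ) 1}

lemma cube_eq (j : Fin d) : cube d = box j (-1) (-1) 1 := by
  ext x; simp [cube, box]

lemma cube_compact : IsCompact (cube d) := by
  have : cube d = WithLp.toLp 2 '' Icc (fun _ => -1) (fun _ => 1) := by
    ext x
    simp only [cube, mem_ofPred_eq, mem_image, mem_Icc, Pi.le_def]
    refine ⟨fun h => ⟨x.ofLp, ⟨fun i => (h i).1, fun i => (h i).2⟩, rfl⟩, ?_⟩
    rintro ⟨y, hy, rfl⟩ i
    exact ⟨hy.1 i, hy.2 i⟩
  rw [this]
  exact isCompact_Icc.image (PiLp.continuous_toLp 2 _)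

lemma cube_convex : Convex ℝ (cube d) := by
  intro x hx y hy a b ha hb hab i
  simpa using convex_Icc (-1 : ℝ) 1 (hx i) (hy i) ha hb hab

lemma cube_int : (interior (cube d)).Nonempty := by
  refine ⟨0, mem_interior.mpr ⟨Metric.ball 0 1, fun x hx i => ?_, Metric.isOpen_ball,
    Metric.mem_ball_self one_pos⟩⟩
  have := (PiLp.norm_apply_le x i).trans (mem_ball_zero_iff.mp hx).le
  exact abs_le.mp this

noncomputable def refl (j : Fin d) : E d ≃ₗᵢ[ℝ] E d :=
  LinearIsometryEquiv.piLpCongrRight 2 fun i =>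
    if i = j then LinearIsometryEquiv.neg ℝ else LinearIsometryEquiv.refl ℝ ℝ

lemma refl_apply (j : Fin d) (x : E d) (i : Fin d) : refl j x i = if i = j then - x i else x i := by
  simp only [refl, LinearIsometryEquiv.piLpCongrRight_apply]
  split_ifs <;> rfl

lemma refl_pres (i j : Fin d) : (unif (cube d)).map (refl j) = unif (cube d) := by
  have h := (refl j).measurePreserving.restrict_preimage (s := cube d)
    (cube_eq i ▸ box_meas _ _ _ _)
  have e : refl j ⁻¹' cube d = cube d := by
    ext x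
    simp only [cube, mem_preimage, mem_ofPred_eq, refl_apply]
    refine forall_congr' fun i => ?_
    split_ifs
    · simp only [mem_Icc]; constructor <;> rintro ⟨h1, h2⟩ <;> constructor <;> linarith
    · rfl
  rw [e] at h
  rw [unif, Measure.map_smul, h.map_eq]

noncomputable def pt (i j : Fin d) (a : ℝ) : E d :=
  EuclideanSpace.single i a + EuclideanSpace.single j 1

lemma inner_pt (i j : Fin d) (a : ℝ) (x : E d) : ⟪x, pt i j a⟫_ℝ = a * x i + x j := by
  simp [pt, inner_add_right, EuclideanSpace.inner_single_right]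

theorem result (d : ℕ) (hd : 2 ≤ d) (α : ℝ) (hα : 1 / 3 < α) : ¬ Admissible d α := by
  intro H
  let i : Fin d := ⟨0, by omega⟩
  let j : Fin d := ⟨1, by omega⟩
  have hij : i ≠ j := by simp [i, j]
  obtain ⟨C, hC⟩ := H (cube d) cube_compact cube_convex cube_int (cube d) cube_compact
    ⟨0, fun _ => by simp⟩
  have hKm : MeasurableSet (cube d) := cube_eq i ▸ box_meas _ _ _ _
  have hV : volume (cube d) = ENNReal.ofReal (2 * 2 ^ (d - 1)) := by
    rw [cube_eq i, vol_box, ENNReal.ofReal_mul (by norm_num), ENNReal.ofReal_pow (by norm_num)]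
    norm_num
  set ρ := unif (cube d) with hρ
  have hρs : ∀ s, MeasurableSet s → ρ s = ENNReal.ofReal (2 * 2 ^ (d - 1))⁻¹ *
      volume (s ∩ cube d) := by
    intro s hs
    rw [hρ, unif, Measure.smul_apply, Measure.restrict_apply hs, hV,
      ENNReal.ofReal_inv_of_pos (by positivity), smul_eq_mul]
  have hP : IsProbabilityMeasure ρ := ⟨by
    rw [hρs _ MeasurableSet.univ, univ_inter, hV, ← ENNReal.ofReal_mul (by positivity),
      inv_mul_cancel₀ (by positivity), ENNReal.ofReal_one]⟩
  have main : ∀ δ : ℝ, 0 < δ → δ ≤ 1 →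
      (δ * (4 * 4 ^ (d - 1))⁻¹) ^ (1 / 2 : ℝ) ≤ C * ((4 * δ ^ 3) ^ (1 / 2 : ℝ)) ^ α := by
    intro δ h0 h1
    have hne : ∀ a, pt i j a ≠ 0 := fun a h => by
      simpa [pt, hij.symm] using congrArg (fun v : E d => v j) h
    have hsupp : ∀ a, |a| ≤ 1 → (ρ.map (two (pt i j a) (1 - δ))) (cube d)ᶜ = 0 := by
      intro a ha
      rw [Measure.map_apply (two_meas _ _) hKm.compl]
      convert measure_empty (μ := ρ)
      refine eq_empty_of_forall_notMem fun x hx => hx fun k => ?_
      unfold two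
      split_ifs
      · have := abs_le.mp ha
        by_cases hk : k = i
        · subst hk; simpa [pt, hij] using this
        · by_cases hk' : k = j
          · subst hk'; simp [pt, hk]
          · simp [pt, hk, hk']
      · simp
    have h := hC _ _ (Measure.isProbabilityMeasure_map (two_meas _ _).aemeasurable)
      (Measure.isProbabilityMeasure_map (two_meas _ _).aemeasurable)
      (hsupp δ (by rw [abs_of_pos h0]; exact h1)) (hsupp (-δ) (by rw [abs_neg, abs_of_pos h0]; exact h1))
      _ _ (two_opt ρ (hne δ) (by linarith)) (two_opt ρ (hne (-δ)) (by linarith))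
    have hW : W2 (ρ.map (two (pt i j δ) (1 - δ))) (ρ.map (two (pt i j (-δ)) (1 - δ))) ≤
        ENNReal.ofReal ((4 * δ ^ 3) ^ (1 / 2 : ℝ)) := by
      have hm : Measurable fun x => (two (pt i j δ) (1 - δ) x,
          two (pt i j (-δ)) (1 - δ) (refl i x)) :=
        (two_meas _ _).prodMk ((two_meas _ _).comp (refl i).continuous.measurable)
      refine (iInf₂_le (ρ.map fun x => (two (pt i j δ) (1 - δ) x,
          two (pt i j (-δ)) (1 - δ) (refl i x))) ⟨?ha, ?hb⟩).trans ?hc
      case ha => rw [Measure.map_map measurable_fst hm]; rfl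
      case hb =>
        rw [Measure.map_map measurable_snd hm]
        conv_rhs => rw [hρ, ← refl_pres i i, ← hρ]
        rw [Measure.map_map (two_meas _ _) (refl i).continuous.measurable]; rfl
      rw [← ENNReal.ofReal_rpow_of_nonneg (by positivity) (by norm_num)]
      refine ENNReal.rpow_le_rpow ?_ (by norm_num)
      rw [lintegral_map (by fun_prop) hm]
      have hA : MeasurableSet {x : E d | 1 - δ < δ * x i + x j} :=
        measurableSet_lt measurable_const (by fun_prop)
      have e : ∀ x, ‖two (pt i j δ) (1 - δ) x - two (pt i j (-δ)) (1 - δ) (refl i x)‖ₑ ^ 2 =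
          indicator {x : E d | 1 - δ < δ * x i + x j} (fun _ => ENNReal.ofReal (4 * δ ^ 2)) x := by
        intro x
        simp only [two, inner_pt, refl_apply, if_true, if_neg hij.symm, neg_mul_neg, indicator,
          mem_ofPred_eq]
        split_ifs
        · have : pt i j δ - pt i j (-δ) = EuclideanSpace.single i (2 * δ) := by
            ext k; simp [pt, Pi.single_apply]; split_ifs <;> ring
          rw [this, enorm_sq, EuclideanSpace.norm_single, Real.norm_eq_abs, sq_abs]
          congr 1; ring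
        · simp
      simp only [e]
      rw [lintegral_indicator_const hA, hρs _ hA]
      have hsub : {x : E d | 1 - δ < δ * x i + x j} ∩ cube d ⊆ box j (-1) (1 - 2 * δ) 1 := by
        rintro x ⟨hx, hK⟩ k
        have h2 := hK k
        have h3 := (hK i).2
        simp only [mem_ofPred_eq] at hx
        split_ifs with hk
        · subst hk; exact ⟨by nlinarith, h2.2⟩
        · exact h2
      refine (mul_le_mul_right (mul_le_mul_right (measure_mono hsub) _) _).trans ?_
      rw [vol_box, ← ENNReal.ofReal_pow (by norm_num), ← ENNReal.ofReal_mul (by linarith),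
        ← ENNReal.ofReal_mul (by positivity), ← ENNReal.ofReal_mul (by positivity)]
      refine ENNReal.ofReal_le_ofReal (le_of_eq ?_)
      norm_num; field_simp
    have hL : ENNReal.ofReal ((δ * (4 * 4 ^ (d - 1))⁻¹) ^ (1 / 2 : ℝ)) ≤ L2norm ρ
        (fun x => two (pt i j δ) (1 - δ) x - two (pt i j (-δ)) (1 - δ) x) := by
      rw [← ENNReal.ofReal_rpow_of_nonneg (by positivity) (by norm_num)]
      refine ENNReal.rpow_le_rpow ?_ (by norm_num)
      have hB := box_meas j (1 / 2) (1 - 5 * δ / 4) (1 - 3 * δ / 4)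
      have hsub : box j (1 / 2) (1 - 5 * δ / 4) (1 - 3 * δ / 4) ⊆ cube d := by
        intro x hx k
        have := hx k
        split_ifs at this <;> exact ⟨by linarith [this.1], by linarith [this.2]⟩
      refine le_trans ?_ (lintegral_mono (f := indicator
        (box j (1 / 2) (1 - 5 * δ / 4) (1 - 3 * δ / 4)) fun _ => 1) fun x => ?_)
      · rw [lintegral_indicator_const hB, hρs _ hB, inter_eq_left.mpr hsub, vol_box,
          ← ENNReal.ofReal_pow (by norm_num), ← ENNReal.ofReal_mul (by linarith),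
          ← ENNReal.ofReal_mul (by positivity), one_mul]
        refine ENNReal.ofReal_le_ofReal (le_of_eq ?_)
        rw [show (4 : ℝ) ^ (d - 1) = 2 ^ (d - 1) * 2 ^ (d - 1) by rw [← mul_pow]; norm_num,
          show (1 - 1 / 2 : ℝ) = 2⁻¹ by norm_num, inv_pow]
        field_simp; ring
      · unfold indicator
        split_ifs with hx
        · have a1 := hx i
          have a2 := hx j
          simp only [if_neg hij, if_true, mem_Icc] at a1 a2
          simp only [two, inner_pt]
          rw [if_pos (by nlinarith), if_neg (by nlinarith), sub_zero, enorm_sq,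
            ← ENNReal.ofReal_one]
          refine ENNReal.ofReal_le_ofReal ?_
          have := PiLp.norm_apply_le (pt i j δ) j
          have e : pt i j δ j = 1 := by simp [pt, hij.symm]
          rw [e, norm_one] at this
          nlinarith
        · exact zero_le
    have h3 := hL.trans (h.trans (mul_le_mul_right (ENNReal.rpow_le_rpow hW (by linarith)) _))
    rw [ENNReal.ofReal_rpow_of_nonneg (by positivity) (by linarith), ← ENNReal.ofReal_coe_nnreal,
      ← ENNReal.ofReal_mul (by positivity)] at h3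
    exact (ENNReal.ofReal_le_ofReal_iff (by positivity)).mp h3
  set c : ℝ := (4 * 4 ^ (d - 1))⁻¹ with hc
  have hc0 : 0 < c := by positivity
  have m2 : ∀ δ : ℝ, 0 < δ → δ ≤ 1 → c ≤ (C : ℝ) ^ 2 * 4 ^ α * δ ^ (3 * α - 1) := by
    intro δ h0 h1
    have := pow_le_pow_left₀ (by positivity) (main δ h0 h1) 2
    rw [mul_pow, ← Real.rpow_natCast (_ ^ (1 / 2 : ℝ)), ← Real.rpow_mul (by positivity),
      ← Real.rpow_mul (by positivity), ← Real.rpow_natCast (_ ^ (1 / 2 * α)),
      ← Real.rpow_mul (by positivity), show 1 / 2 * α * ((2 : ℕ) : ℝ) = α by push_cast; ring,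
      show 1 / 2 * ((2 : ℕ) : ℝ) = 1 by norm_num, Real.rpow_one,
      Real.mul_rpow (by norm_num) (by positivity),
      ← Real.rpow_natCast δ 3, ← Real.rpow_mul h0.le] at this
    push_cast at this
    rw [Real.rpow_sub h0, Real.rpow_one, ← mul_div_assoc, le_div_iff₀ h0]
    linarith
  have hlim : Filter.Tendsto (fun δ : ℝ => (C : ℝ) ^ 2 * 4 ^ α * δ ^ (3 * α - 1))
      (nhdsWithin 0 (Ioi 0)) (nhds 0) := by
    have : ContinuousAt (fun δ : ℝ => (C : ℝ) ^ 2 * 4 ^ α * δ ^ (3 * α - 1)) 0 :=
      continuousAt_const.mul (Real.continuousAt_rpow_const 0 _ (Or.inr (by linarith)))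
    have h2 := this.tendsto.mono_left (nhdsWithin_le_nhds (s := Ioi 0))
    rwa [Real.zero_rpow (by linarith), mul_zero] at h2
  have := ge_of_tendsto hlim (by
    filter_upwards [Ioc_mem_nhdsGT one_pos] with δ hδ using m2 δ hδ.1 hδ.2)
  linarith

end Vale.Agent.Results.P074.OneThird
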